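import Mathlib

/-! # Module A1: indices for the zoom map -/

namespace P025H440

/-- A1: indices for the zoom map -/
theorem exists_zoom_index {p : ℕ} (hp : p.Prime) (hp2 : p ≠ 2) (M : ℕ) :
    ∃ n, 3 ≤ n ∧ ¬ p ∣ 2 * n - 1 ∧ p ^ M ∣ n.centralBinom := by
  have hp3 : 3 ≤ p := by
    have := hp.two_le
    omega
  have hodd : Odd p := hp.odd_of_ne_two hp2
  obtain ⟨r, hr⟩ := hodd.pow (n := M + 1)
  have hq3 : 3 ≤ p ^ (M + 1) := by
    calc 3 ≤ p := hp3
      _ = p ^ 1 := (pow_one p).symm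
      _ ≤ p ^ (M + 1) := Nat.pow_le_pow_right (by omega) (by omega)
  have hpq : p ∣ p ^ (M + 1) := dvd_pow_self p (Nat.succ_ne_zero M)
  have h1 : p ^ (M + 1) ∣ (r + 1).centralBinom := by
    have h2 := Nat.succ_mul_centralBinom_succ r
    have h3 : p ^ (M + 1) ∣ (r + 1) * (r + 1).centralBinom := by
      rw [h2, ← hr]
      exact Dvd.dvd.mul_right (Dvd.intro_left _ rfl) _
    have h4 : ¬ p ∣ r + 1 := by
      intro h5
      have h6 : p ∣ 2 * (r + 1) := Dvd.dvd.mul_left h5 2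
      have h7 : 2 * (r + 1) = p ^ (M + 1) + 1 := by omega
      rw [h7] at h6
      have h8 : p ∣ 1 := (Nat.dvd_add_right hpq).1 h6
      exact hp.one_lt.ne' (Nat.dvd_one.1 h8)
    exact hp.prime.pow_dvd_of_dvd_mul_left (M + 1) h4 h3
  have h9 : p ^ (M + 1) ∣ (r + 2) * (r + 2).centralBinom := by
    rw [Nat.succ_mul_centralBinom_succ (r + 1)]
    exact Dvd.dvd.mul_left h1 _
  refine ⟨r + 2, by omega, ?_, ?_⟩
  · intro h5
    have h6 : 2 * (r + 2) - 1 = p ^ (M + 1) + 2 := by omega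
    rw [h6] at h5
    have h7 : p ∣ 2 := (Nat.dvd_add_right hpq).1 h5
    have h8 := Nat.le_of_dvd (by norm_num) h7
    omega
  · by_cases hpn : p ∣ r + 2
    · rcases Nat.eq_zero_or_pos M with hM | hM
      · subst hM; simp
      · have hp33 : p = 3 := by
          have h6 : p ∣ 2 * (r + 2) := Dvd.dvd.mul_left hpn 2
          have h7 : 2 * (r + 2) = p ^ (M + 1) + 3 := by omega
          rw [h7] at h6
          have h8 : p ∣ 3 := (Nat.dvd_add_right hpq).1 h6
          have h10 := Nat.le_of_dvd (by norm_num) h8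
          omega
        subst hp33
        obtain ⟨c, hc⟩ := hpn
        have hc3 : ¬ 3 ∣ c := by
          rintro ⟨d, hd⟩
          have h10 : 9 ∣ 3 ^ (M + 1) := by
            obtain ⟨M', rfl⟩ : ∃ M', M = M' + 1 := ⟨M - 1, by omega⟩
            exact ⟨3 ^ M', by ring⟩
          have h11 : 2 * (r + 2) = 3 ^ (M + 1) + 3 := by omega
          have h12 : 9 ∣ 3 ^ (M + 1) + 3 := ⟨2 * d, by rw [← h11, hc, hd]; ring⟩
          have h13 : 9 ∣ 3 := (Nat.dvd_add_right h10).1 h12
          omega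
        rw [hc] at h9
        rw [pow_succ, mul_comm (3 ^ M) 3, mul_assoc] at h9
        have h14 : 3 ^ M ∣ c * (r + 2).centralBinom := by
          rw [hc]
          exact (Nat.mul_dvd_mul_iff_left (by norm_num)).1 h9
        exact hp.prime.pow_dvd_of_dvd_mul_left M hc3 h14
    · exact (pow_dvd_pow p (Nat.le_succ M)).trans
        (hp.prime.pow_dvd_of_dvd_mul_left (M + 1) hpn h9)

end P025H440
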