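import Mathlib

/-! # Initial state: the ultrametric estimates -/

namespace P025H722

universe u

/-- inverses of the points of a dense set are dense away from `0` -/
theorem inv_dense_aux {k' : Type u} [NormedField k'] [IsUltrametricDist k'] {p : ℝ} (hp : 1 < p)
    {a b N : ℕ} (hN : a + 2 * b + 1 ≤ N) {C : Set k'}
    (hdense : ∀ x : k', ‖x‖ ≤ p ^ N → ∃ c ∈ C, ‖x - c‖ ≤ (p ^ N)⁻¹) (x : k')
    (hx1 : (p ^ a)⁻¹ < ‖x‖) (hx2 : ‖x‖ ≤ p ^ b) :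
    ∃ c ∈ C, c ≠ 0 ∧ ‖c⁻¹ - x‖ ≤ (p ^ a)⁻¹ := by
  have hp0 : 0 < p := by linarith
  have hpa : 0 < p ^ a := pow_pos hp0 a
  have hpb : 0 < p ^ b := pow_pos hp0 b
  have hpN : 0 < p ^ N := pow_pos hp0 N
  have hx0 : 0 < ‖x‖ := lt_trans (inv_pos.2 hpa) hx1
  have hxne : x ≠ 0 := norm_pos_iff.1 hx0
  obtain ⟨c, hc, hxc⟩ := hdense x⁻¹ (by
    rw [norm_inv]
    calc ‖x‖⁻¹ ≤ ((p ^ a)⁻¹)⁻¹ := inv_anti₀ (inv_pos.2 hpa) hx1.le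
      _ = p ^ a := inv_inv _
      _ ≤ p ^ N := pow_le_pow_right₀ hp.le (by omega))
  have hbN : (p ^ N)⁻¹ < (p ^ b)⁻¹ :=
    inv_strictAnti₀ hpb (pow_lt_pow_right₀ hp (by omega))
  have hxb : (p ^ b)⁻¹ ≤ ‖x‖⁻¹ := inv_anti₀ hx0 hx2
  have hlt : ‖x⁻¹ - c‖ < ‖x⁻¹‖ := by
    rw [norm_inv]
    exact lt_of_le_of_lt hxc (lt_of_lt_of_le hbN hxb)
  have hcn : ‖c‖ = ‖x‖⁻¹ := by
    have h1 : c = x⁻¹ - (x⁻¹ - c) := by ring
    have h2 : ‖x⁻¹ - (x⁻¹ - c)‖ = ‖x⁻¹‖ := by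
      have h3 := IsUltrametricDist.norm_add_eq_max_of_norm_ne_norm (x := x⁻¹) (y := -(x⁻¹ - c))
        (by rw [norm_neg]; exact hlt.ne')
      rw [← sub_eq_add_neg, norm_neg, max_eq_left hlt.le] at h3
      exact h3
    rw [← h1, norm_inv] at h2
    exact h2
  have hc0 : c ≠ 0 := by
    rw [← norm_pos_iff, hcn]
    exact inv_pos.2 hx0
  refine ⟨c, hc, hc0, ?_⟩
  have h4 : c⁻¹ - x = c⁻¹ * (x * (x⁻¹ - c)) := by
    field_simp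
  rw [h4, norm_mul, norm_mul, norm_inv, hcn, inv_inv]
  calc ‖x‖ * (‖x‖ * ‖x⁻¹ - c‖) ≤ p ^ b * (p ^ b * (p ^ N)⁻¹) := by
        gcongr
    _ ≤ p ^ b * (p ^ b * (p ^ (a + 2 * b))⁻¹) := by
        gcongr
        · exact hp.le
        · omega
    _ = (p ^ a)⁻¹ := by
        rw [pow_add, two_mul, pow_add]
        field_simp

end P025H722
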