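import Vale.Agent.P025.R2.H722.Near
import Vale.Agent.P025.R2.H722.InitAux

/-! # Module A2: the initial state -/

open IntermediateField Polynomial

namespace P025H440

open P025H641

universe u v w

variable {p : ℕ} [Fact p.Prime] {k : Type u} {K : Type v} [Field k] [Field K] [Algebra k K]
  [CharZero k] {s : Gal(constClosure k K/k) →* Gal(maxUnr k K/K)}
  {G : Subgroup Gal(constClosure k K/k)} {k' : Type w} [Field k'] [CharZero k']
  [Algebra k' (maxUnr k K)] [Algebra ℚ_[p] k'] [FiniteDimensional ℚ_[p] k']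
  {O : ValuationSubring (maxUnr k K)}

omit [CharZero k'] [FiniteDimensional ℚ_[p] k'] in
/-- constants have roots of all orders -/
theorem Ctx.exists_const_root (h : Ctx p s G k' O) {m : ℕ} (hm : 0 < m) (c : k') :
    ∃ g : maxUnr k K, g ^ m = algebraMap k' (maxUnr k K) c := by
  obtain ⟨w, hw⟩ := IsAlgClosed.exists_pow_nat_eq
    ((algebraMap k' (maxUnr k K) c : maxUnr k K) : AlgebraicClosure K) hm
  have h1 : IsIntegral k w :=
    isIntegral_of_pow' hm (by rw [hw]; exact isIntegral_coe.2 (h.base.alg c))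
  exact ⟨⟨w, mem_maxUnr_of_const _ h1⟩, Subtype.ext hw⟩

omit [CharZero k'] [FiniteDimensional ℚ_[p] k'] in
/-- the cusps of `T - c` -/
theorem cusp_sub {m : ℕ} {T : maxUnr k K} {c b : k'} (hb : b ∈ Cusp k' m T) :
    b - c ∈ Cusp k' m (T - algebraMap k' (maxUnr k K) c) := by
  obtain ⟨g, hg⟩ := hb
  exact ⟨g, by rw [hg, map_sub]; ring⟩

omit [CharZero k'] in
/-- the state attached to an element of value at most one -/
theorem Ctx.exists_initial_aux (h : Ctx p s G k' O) {m : ℕ} {ε R : ℝ} (hR : 1 ≤ R)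
    (hε : 0 ≤ ε) (T : maxUnr k K) (hfix : ∀ σ ∈ G, s σ T = T)
    (hconst : ∀ c : k', T ≠ algebraMap k' (maxUnr k K) c) (hT : O.valuation T ≤ 1)
    (hdense : ∀ x : k', spectralNorm ℚ_[p] k' x ≤ R → ∃ b ∈ Cusp k' m T,
      spectralNorm ℚ_[p] k' (b - x) ≤ ε) :
    ∃ t : maxUnr k K, IsState s G k' O t ∧ t ≠ 0 ∧ O.valuation t ≤ 1 ∧
      RDs p (Cusp k' m t) ε 1 R := by
  let inst1 : NontriviallyNormedField k' := spectralNorm.nontriviallyNormedField ℚ_[p] k'
  have hu : IsUltrametricDist k' :=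
    IsUltrametricDist.isUltrametricDist_of_isNonarchimedean_norm isNonarchimedean_spectralNorm
  obtain ⟨c, hc⟩ := h.exists_near' T
  have hc1 : O.valuation (algebraMap k' (maxUnr k K) c) ≤ O.valuation T := by
    have := hc 0
    rwa [sub_zero, map_zero, sub_zero] at this
  have hcn : ‖c‖ ≤ 1 := (h.const c).1 ((O.valuation_le_one_iff _).1 (hc1.trans hT))
  refine ⟨T - algebraMap k' (maxUnr k K) c, ⟨?_, ?_⟩, sub_ne_zero.2 (hconst c), ?_, ?_⟩
  · intro σ hσ
    rw [map_sub, hfix σ hσ, h.base.fix c σ hσ]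
  · intro x
    have h1 := hc (c + x)
    rw [sub_add_cancel_left, map_neg, Valuation.map_neg, map_add, ← sub_sub] at h1
    exact h1
  · exact (O.valuation.map_sub _ _).trans (max_le hT (hc1.trans hT))
  · intro z hz1 hz2
    have h2 : ‖z + c‖ ≤ R :=
      (IsUltrametricDist.norm_add_le_max z c).trans (max_le hz2 (hcn.trans hR))
    obtain ⟨b, hb, hb2⟩ := hdense (z + c) h2
    refine ⟨b - c, cusp_sub hb, ?_⟩
    have h3 : b - c - z = b - (z + c) := by ring
    rw [h3]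
    exact hb2.trans (le_mul_of_one_le_right hε hz1)

omit [CharZero k'] in
/-- A2: the initial state, from `T` or `T⁻¹` -/
theorem Ctx.exists_initial (h : Ctx p s G k' O) {m : ℕ} (hm : 0 < m) (a b N : ℕ) (_ha : 1 ≤ a)
    (hN : a + 2 * b + 1 ≤ N) (T : maxUnr k K) (hfix : ∀ σ ∈ G, s σ T = T)
    (hconst : ∀ c : k', T ≠ algebraMap k' (maxUnr k K) c) (h0 : (0 : k') ∈ Cusp k' m T)
    (hdense : ∀ x : k', spectralNorm ℚ_[p] k' x ≤ (p : ℝ) ^ N → ∃ b ∈ Cusp k' m T,
      spectralNorm ℚ_[p] k' (x - b) ≤ ((p : ℝ) ^ N)⁻¹) :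
    ∃ t : maxUnr k K, IsState s G k' O t ∧ t ≠ 0 ∧ O.valuation t ≤ 1 ∧
      RDs p (Cusp k' m t) ((p : ℝ) ^ a)⁻¹ 1 ((p : ℝ) ^ b) := by
  let inst1 : NontriviallyNormedField k' := spectralNorm.nontriviallyNormedField ℚ_[p] k'
  have hu : IsUltrametricDist k' :=
    IsUltrametricDist.isUltrametricDist_of_isNonarchimedean_norm isNonarchimedean_spectralNorm
  have hp1 : (1 : ℝ) < p := by exact_mod_cast (Fact.out : p.Prime).one_lt
  have hp0 : (0 : ℝ) < p := by linarith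
  have hb1 : (1 : ℝ) ≤ (p : ℝ) ^ b := one_le_pow₀ hp1.le
  have ha1 : (0 : ℝ) ≤ ((p : ℝ) ^ a)⁻¹ := by positivity
  rcases le_total (O.valuation T) 1 with hT | hT
  · refine h.exists_initial_aux hb1 ha1 T hfix hconst hT ?_
    intro x hx
    obtain ⟨c, hc, hxc⟩ := hdense x (hx.trans (pow_le_pow_right₀ hp1.le (by omega)))
    refine ⟨c, hc, ?_⟩
    have h1 : spectralNorm ℚ_[p] k' (c - x) = spectralNorm ℚ_[p] k' (x - c) := norm_sub_rev c x
    rw [h1]
    exact hxc.trans (inv_anti₀ (pow_pos hp0 a) (pow_le_pow_right₀ hp1.le (by omega)))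
  · have hT0 : T ≠ 0 := by
      have := hconst 0
      rwa [map_zero] at this
    obtain ⟨g₀, hg₀⟩ := h0
    rw [map_zero, sub_zero] at hg₀
    have hc0 : (0 : k') ∈ Cusp k' m T⁻¹ := ⟨g₀⁻¹, by rw [inv_pow, hg₀, map_zero, sub_zero]⟩
    have hcinv : ∀ c ∈ Cusp k' m T, c ≠ 0 → c⁻¹ ∈ Cusp k' m T⁻¹ := by
      rintro c ⟨g, hg⟩ hc
      obtain ⟨r, hr⟩ := h.exists_const_root hm (-c⁻¹)
      refine ⟨r * (g / g₀), ?_⟩
      have hcM : algebraMap k' (maxUnr k K) c ≠ 0 := by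
        rwa [ne_eq, map_eq_zero]
      rw [mul_pow, div_pow, hr, hg, hg₀, map_neg, map_inv₀]
      field_simp
      ring
    refine h.exists_initial_aux hb1 ha1 T⁻¹ ?_ ?_ ?_ ?_
    · intro σ hσ
      rw [map_inv₀, hfix σ hσ]
    · intro c hc
      apply hconst c⁻¹
      rw [map_inv₀, ← hc, inv_inv]
    · rw [map_inv₀]
      exact inv_le_one_of_one_le₀ hT
    · intro x hx
      rcases le_or_gt ‖x‖ ((p : ℝ) ^ a)⁻¹ with hx1 | hx1
      · refine ⟨0, hc0, ?_⟩
        have h1 : spectralNorm ℚ_[p] k' (0 - x) = ‖x‖ := by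
          rw [zero_sub]; exact norm_neg x
        rw [h1]
        exact hx1
      · obtain ⟨c, hc, hcne, hcx⟩ := P025H722.inv_dense_aux hp1 hN
          (C := Cusp k' m T) hdense x hx1 hx
        exact ⟨c⁻¹, hcinv c hc hcne, hcx⟩

end P025H440
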