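import Mathlib

/-! # Nearest constants: the abstract statement -/

namespace P025H722

universe u v w

/-- if a valuation of `M` restricts to the norm of a locally compact (proper) field `k'` then every
element of `M` has a nearest constant -/
theorem exists_near_aux {k' : Type u} [NontriviallyNormedField k'] [ProperSpace k'] {M : Type v}
    [Field M] [Algebra k' M] {Γ : Type w} [LinearOrderedCommGroupWithZero Γ] (v : Valuation M Γ)
    (hv : ∀ c d : k', v (algebraMap k' M c) ≤ v (algebraMap k' M d) ↔ ‖c‖ ≤ ‖d‖) (T : M) :
    ∃ c : k', ∀ x : k', v (algebraMap k' M (c - x)) ≤ v (T - algebraMap k' M x) := by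
  by_contra hcon
  push Not at hcon
  choose x hx using hcon
  have h1 : ∀ c, v (T - algebraMap k' M c) = v (algebraMap k' M (c - x c)) := by
    intro c
    have h2 : T - algebraMap k' M c = (T - algebraMap k' M (x c)) - algebraMap k' M (c - x c) := by
      rw [map_sub]; ring
    rw [h2]
    exact Valuation.map_sub_eq_of_lt_right v (hx c)
  have hmem : ∀ c y : k', y ∈ Metric.closedBall c ‖c - x c‖ ↔
      v (algebraMap k' M (y - c)) ≤ v (T - algebraMap k' M c) := by
    intro c y
    rw [Metric.mem_closedBall, dist_eq_norm, h1, hv]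
  have hsub : ∀ c c' : k', v (T - algebraMap k' M c') ≤ v (T - algebraMap k' M c) →
      Metric.closedBall c' ‖c' - x c'‖ ⊆ Metric.closedBall c ‖c - x c‖ := by
    intro c c' hcc y hy
    rw [hmem] at hy ⊢
    have h2 : algebraMap k' M (y - c) = algebraMap k' M (y - c') +
        ((T - algebraMap k' M c) - (T - algebraMap k' M c')) := by
      rw [map_sub, map_sub]; ring
    rw [h2]
    refine (v.map_add _ _).trans (max_le (hy.trans hcc) ?_)
    exact (v.map_sub _ _).trans (max_le le_rfl hcc)
  obtain ⟨y, hy⟩ := IsCompact.nonempty_iInter_of_directed_nonempty_isCompact_isClosed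
    (fun c : k' => Metric.closedBall c ‖c - x c‖)
    (by
      intro c c'
      rcases le_total (v (T - algebraMap k' M c)) (v (T - algebraMap k' M c')) with h | h
      · exact ⟨c, subset_rfl, hsub c' c h⟩
      · exact ⟨c', hsub c c' h, subset_rfl⟩)
    (fun c => ⟨c, Metric.mem_closedBall_self (norm_nonneg _)⟩)
    (fun c => isCompact_closedBall c _)
    (fun c => Metric.isClosed_closedBall)
  have h3 := (hmem (x y) y).1 (Set.mem_iInter.1 hy (x y))
  exact absurd h3 (not_le.2 (hx y))

end P025H722
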