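import Vale.Agent.P025.R2.H440.Defs
import Vale.Agent.P025.R2.H722.NearAux

/-! # Module NEAR: nearest constants -/

open IntermediateField Polynomial

namespace P025H440

open P025H641

universe u v w

variable {p : ℕ} [Fact p.Prime] {k : Type u} {K : Type v} [Field k] [Field K] [Algebra k K]
  [CharZero k] {s : Gal(constClosure k K/k) →* Gal(maxUnr k K/K)}
  {G : Subgroup Gal(constClosure k K/k)} {k' : Type w} [Field k'] [Algebra k' (maxUnr k K)]
  [Algebra ℚ_[p] k'] [FiniteDimensional ℚ_[p] k'] {O : ValuationSubring (maxUnr k K)}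

/-- values of constants -/
theorem Ctx.val_le_iff (h : Ctx p s G k' O) (c d : k') :
    O.valuation (algebraMap k' (maxUnr k K) c) ≤ O.valuation (algebraMap k' (maxUnr k K) d) ↔
      spectralNorm ℚ_[p] k' c ≤ spectralNorm ℚ_[p] k' d := by
  let inst1 : NontriviallyNormedField k' := spectralNorm.nontriviallyNormedField ℚ_[p] k'
  have hnorm : ∀ x : k', spectralNorm ℚ_[p] k' x = ‖x‖ := fun x => rfl
  have hinj : Function.Injective (algebraMap k' (maxUnr k K)) := (algebraMap k' _).injective
  by_cases hd : d = 0
  · subst hd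
    rw [map_zero, map_zero, le_zero_iff, map_eq_zero, map_eq_zero, hnorm, hnorm, norm_zero,
      norm_le_zero_iff]
  · have hd1 : 0 < O.valuation (algebraMap k' (maxUnr k K) d) := by
      rw [zero_lt_iff, ne_eq, map_eq_zero, map_eq_zero]; exact hd
    have hd2 : 0 < ‖d‖ := norm_pos_iff.2 hd
    rw [← div_le_one₀ hd1, ← map_div₀, ← map_div₀, ValuationSubring.valuation_le_one_iff, h.const,
      hnorm, hnorm, hnorm, norm_div, div_le_one₀ hd2]

/-- nearest constants exist (no hypotheses are needed) -/
theorem Ctx.exists_near' (h : Ctx p s G k' O) (T : maxUnr k K) :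
    ∃ c : k', ∀ x : k', O.valuation (algebraMap k' (maxUnr k K) (c - x)) ≤
      O.valuation (T - algebraMap k' (maxUnr k K) x) := by
  let inst1 : NontriviallyNormedField k' := spectralNorm.nontriviallyNormedField ℚ_[p] k'
  have hproper : ProperSpace k' := by
    let _ : NormedAlgebra ℚ_[p] k' := spectralNorm.normedAlgebra ℚ_[p] k'
    exact FiniteDimensional.proper ℚ_[p] k'
  exact P025H722.exists_near_aux O.valuation (fun c d => h.val_le_iff c d) T

/-- nearest constants exist for elements at bounded distance from the constants -/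
theorem Ctx.exists_near (h : Ctx p s G k' O) (T : maxUnr k K)
    (_hbd : ∀ c : k', ∃ N : ℕ, O.valuation (p : maxUnr k K) ^ N ≤
      O.valuation (T - algebraMap k' (maxUnr k K) c))
    (_hbd' : ∃ N : ℕ, O.valuation (p : maxUnr k K) ^ N * O.valuation T ≤ 1) :
    ∃ c : k', ∀ x : k', O.valuation (algebraMap k' (maxUnr k K) (c - x)) ≤
      O.valuation (T - algebraMap k' (maxUnr k K) x) :=
  h.exists_near' T

end P025H440
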