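import Vale.Agent.P025.R2.H722.Cp
import Vale.Agent.P025.R2.H720.Tree

/-! # `Cp p Kb` as a field with isometric continuous action (instances of helper720) -/

universe u

namespace P025H722

open P025H720

section cp

variable {p : ℕ} [Fact p.Prime] {Kb : Type u} [Field Kb] [Algebra ℚ_[p] Kb]
  [Algebra.IsAlgebraic ℚ_[p] Kb] {G : Type*} [Group G] [MulSemiringAction G Kb]
  [SMulCommClass G ℚ_[p] Kb]

instance equi_Cp : P025H720.Equi G Kb (Cp p Kb) where
  smul_algebraMap g x := Cp.smul_algebraMap g x

instance normAct_Cp [TopologicalSpace G] [IsTopologicalGroup G] [OpenStab G Kb] :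
    P025H720.NormAct G (Cp p Kb) where
  norm_smul g c := P025H722.NormAct.norm_smul_eq g c
  cont c := Cp.continuous_smul OpenStab.isOpen c

end cp

/-- open stabilizers on `N` give open stabilizers on `kb` -/
theorem openStab_of_equi {G kb N : Type*} [Group G] [TopologicalSpace G] [Field kb] [Field N]
    [Algebra kb N] [MulSemiringAction G kb] [MulSemiringAction G N] [Equi G kb N] [OpenStab G N] :
    OpenStab G kb where
  isOpen x := by
    have h1 : MulAction.stabilizer G x = MulAction.stabilizer G (algebraMap kb N x) := by
      ext g
      rw [MulAction.mem_stabilizer_iff, MulAction.mem_stabilizer_iff,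
        Equi.smul_algebraMap (G := G) (F := kb)]
      exact ⟨fun h => by rw [h], fun h => (algebraMap kb N).injective h⟩
    rw [h1]
    exact OpenStab.isOpen _

end P025H722
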