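import Mathlib

/-! # Bounded sequences modulo null sequences along an ultrafilter -/

open Filter Topology

namespace P025H722

universe u

/-- bounded real sequences converge along the hyperfilter -/
theorem exists_lim_hyper (f : ℕ → ℝ) (M : ℝ) (h0 : ∀ n, 0 ≤ f n) (hM : ∀ n, f n ≤ M) :
    ∃ a, Tendsto f (hyperfilter ℕ) (𝓝 a) := by
  have h1 : ((hyperfilter ℕ).map f : Filter ℝ) ≤ 𝓟 (Set.Icc 0 M) := by
    rw [Filter.le_principal_iff]
    exact Filter.mem_map.2 (Filter.univ_mem' (fun n => ⟨h0 n, hM n⟩))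
  obtain ⟨a, -, ha⟩ := isCompact_Icc.ultrafilter_le_nhds _ h1
  exact ⟨a, ha⟩

section defs

variable (C : Type u) [NormedField C]

/-- the bounded sequences -/
def bdSub : Subalgebra C (ℕ → C) where
  carrier := {x | ∃ M : ℝ, ∀ n, ‖x n‖ ≤ M}
  mul_mem' := by
    rintro x y ⟨M, hM⟩ ⟨N, hN⟩
    refine ⟨M * N, fun n => ?_⟩
    rw [Pi.mul_apply, norm_mul]
    exact mul_le_mul (hM n) (hN n) (norm_nonneg _) ((norm_nonneg _).trans (hM n))
  add_mem' := by
    rintro x y ⟨M, hM⟩ ⟨N, hN⟩
    exact ⟨M + N, fun n => (norm_add_le _ _).trans (add_le_add (hM n) (hN n))⟩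
  algebraMap_mem' := fun c => ⟨‖c‖, fun _ => le_rfl⟩

/-- the algebra of bounded sequences -/
def BSeq : Type u := bdSub C

noncomputable instance : CommRing (BSeq C) := inferInstanceAs (CommRing (bdSub C))

noncomputable instance : Algebra C (BSeq C) := inferInstanceAs (Algebra C (bdSub C))

end defs

namespace BSeq

variable {C : Type u} [NormedField C]

/-- the terms of a bounded sequence -/
def val (x : BSeq C) : ℕ → C := Subtype.val x

theorem bdd (x : BSeq C) : ∃ M : ℝ, ∀ n, ‖x.val n‖ ≤ M := x.2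

/-- the bounded sequence with given terms -/
def mk (x : ℕ → C) (hx : ∃ M : ℝ, ∀ n, ‖x n‖ ≤ M) : BSeq C := ⟨x, hx⟩

@[simp] theorem val_mk (x : ℕ → C) (hx : ∃ M : ℝ, ∀ n, ‖x n‖ ≤ M) : (mk x hx).val = x := rfl

@[simp] theorem val_add (x y : BSeq C) : (x + y).val = x.val + y.val := rfl

@[simp] theorem val_sub (x y : BSeq C) : (x - y).val = x.val - y.val := rfl

@[simp] theorem val_neg (x : BSeq C) : (-x).val = -x.val := rfl

@[simp] theorem val_mul (x y : BSeq C) : (x * y).val = x.val * y.val := rfl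

@[simp] theorem val_zero : (0 : BSeq C).val = 0 := rfl

@[simp] theorem val_one : (1 : BSeq C).val = 1 := rfl

@[simp] theorem val_algebraMap (c : C) (n : ℕ) : (algebraMap C (BSeq C) c).val n = c := rfl

/-- the evaluation homomorphism -/
def ev (n : ℕ) : BSeq C →+* C where
  toFun x := x.val n
  map_zero' := rfl
  map_one' := rfl
  map_add' _ _ := rfl
  map_mul' _ _ := rfl

@[simp] theorem ev_apply (n : ℕ) (x : BSeq C) : ev n x = x.val n := rfl

/-- the limit of the norms -/
noncomputable def lim (x : BSeq C) : ℝ :=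
  limUnder (hyperfilter ℕ : Filter ℕ) (fun n => ‖x.val n‖)

theorem tendsto (x : BSeq C) : Tendsto (fun n => ‖x.val n‖) (hyperfilter ℕ) (𝓝 x.lim) := by
  obtain ⟨M, hM⟩ := x.bdd
  exact tendsto_nhds_limUnder (exists_lim_hyper _ M (fun n => norm_nonneg _) hM)

theorem lim_eq {x : BSeq C} {a : ℝ}
    (h : Tendsto (fun n => ‖x.val n‖) (hyperfilter ℕ) (𝓝 a)) : x.lim = a :=
  tendsto_nhds_unique x.tendsto h

/-- the seminorm -/
noncomputable def rs : RingSeminorm (BSeq C) where
  toFun := lim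
  map_zero' := by
    apply lim_eq
    simp
  add_le' := by
    intro x y
    refine le_of_tendsto_of_tendsto' (x + y).tendsto (x.tendsto.add y.tendsto) ?_
    intro n
    exact norm_add_le _ _
  neg' := by
    intro x
    apply lim_eq
    simpa using x.tendsto
  mul_le' := by
    intro x y
    apply le_of_eq
    apply lim_eq
    have := x.tendsto.mul y.tendsto
    simpa using this

noncomputable instance : SeminormedCommRing (BSeq C) where
  __ := (rs (C := C)).toSeminormedRing
  mul_comm := mul_comm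

theorem norm_def (x : BSeq C) : ‖x‖ = x.lim := rfl

theorem tendsto_norm (x : BSeq C) :
    Tendsto (fun n => ‖x.val n‖) (hyperfilter ℕ) (𝓝 ‖x‖) := x.tendsto

theorem norm_eq {x : BSeq C} {a : ℝ}
    (h : Tendsto (fun n => ‖x.val n‖) (hyperfilter ℕ) (𝓝 a)) : ‖x‖ = a := lim_eq h

theorem norm_mul' (x y : BSeq C) : ‖x * y‖ = ‖x‖ * ‖y‖ := by
  apply norm_eq
  have := x.tendsto_norm.mul y.tendsto_norm
  simpa using this

theorem norm_algebraMap' (c : C) : ‖algebraMap C (BSeq C) c‖ = ‖c‖ := by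
  apply norm_eq
  simp

noncomputable instance : NormedAlgebra C (BSeq C) where
  __ := (inferInstance : Algebra C (BSeq C))
  norm_smul_le := by
    intro c x
    rw [Algebra.smul_def, norm_mul', norm_algebraMap']

theorem norm_add_le_max [IsUltrametricDist C] (x y : BSeq C) : ‖x + y‖ ≤ max ‖x‖ ‖y‖ := by
  refine le_of_tendsto_of_tendsto' (x + y).tendsto (x.tendsto.max y.tendsto) ?_
  intro n
  exact IsUltrametricDist.norm_add_le_max _ _

theorem norm_le_of_eventually {x : BSeq C} {a : ℝ}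
    (h : ∀ᶠ n in (hyperfilter ℕ : Filter ℕ), ‖x.val n‖ ≤ a) : ‖x‖ ≤ a :=
  le_of_tendsto x.tendsto h

theorem norm_eq_zero_of_eventually {x : BSeq C}
    (h : ∀ᶠ n in (hyperfilter ℕ : Filter ℕ), x.val n = 0) : ‖x‖ = 0 := by
  apply le_antisymm _ (norm_nonneg _)
  apply norm_le_of_eventually
  filter_upwards [h] with n hn
  rw [hn, norm_zero]

/-- a sequence of positive norm is invertible modulo null sequences -/
theorem exists_inv (x : BSeq C) (hx : ‖x‖ ≠ 0) : ∃ y : BSeq C, ‖x * y - 1‖ = 0 := by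
  classical
  have hpos : 0 < ‖x‖ := lt_of_le_of_ne (norm_nonneg _) (Ne.symm hx)
  let y : ℕ → C := fun n => if ‖x‖ / 2 ≤ ‖x.val n‖ then (x.val n)⁻¹ else 0
  have hy : ∃ M : ℝ, ∀ n, ‖y n‖ ≤ M := by
    refine ⟨(‖x‖ / 2)⁻¹, fun n => ?_⟩
    by_cases h : ‖x‖ / 2 ≤ ‖x.val n‖
    · simp only [y, if_pos h, norm_inv]
      exact inv_anti₀ (by linarith) h
    · simp only [y, if_neg h, norm_zero]
      positivity
  refine ⟨mk y hy, ?_⟩
  apply norm_eq_zero_of_eventually
  have h1 : ∀ᶠ n in (hyperfilter ℕ : Filter ℕ), ‖x‖ / 2 < ‖x.val n‖ :=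
    x.tendsto_norm.eventually (lt_mem_nhds (by linarith))
  filter_upwards [h1] with n hn
  have h2 : x.val n ≠ 0 := by
    intro h0
    rw [h0, norm_zero] at hn
    linarith
  simp only [val_sub, val_mul, val_mk, val_one, Pi.sub_apply, Pi.mul_apply, Pi.one_apply]
  simp only [y, if_pos hn.le]
  rw [mul_inv_cancel₀ h2, sub_self]

end BSeq

end P025H722
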