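import Vale.Agent.P025.R2.H722.CSeq

/-! # A spherically complete algebraically closed extension (row G-CSTAR) -/

open Filter Topology Polynomial

namespace P025H722

universe u

/-- bounded elements of the ultrapower of `C` modulo infinitesimals -/
def CStar (C : Type u) [NormedField C] : Type u := SeparationQuotient (BSeq C)

namespace CStar

variable {C : Type u} [NormedField C]

noncomputable instance : NormedCommRing (CStar C) :=
  inferInstanceAs (NormedCommRing (SeparationQuotient (BSeq C)))

noncomputable instance : NormedAlgebra C (CStar C) :=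
  inferInstanceAs (NormedAlgebra C (SeparationQuotient (BSeq C)))

/-- the class of a bounded sequence -/
noncomputable def mk : BSeq C →+* CStar C where
  toFun x := SeparationQuotient.mk x
  map_one' := rfl
  map_zero' := rfl
  map_mul' _ _ := rfl
  map_add' _ _ := rfl

theorem norm_mk (x : BSeq C) : ‖mk x‖ = ‖x‖ := rfl

theorem mk_surjective : Function.Surjective (mk (C := C)) := SeparationQuotient.surjective_mk

theorem algebraMap_eq (c : C) : algebraMap C (CStar C) c = mk (algebraMap C (BSeq C) c) := rfl

theorem mk_eq_zero {x : BSeq C} (h : ‖x‖ = 0) : mk x = 0 := by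
  rw [← norm_eq_zero, norm_mk, h]

theorem mk_eq_zero_of_eventually {x : BSeq C}
    (h : ∀ᶠ n in (hyperfilter ℕ : Filter ℕ), x.val n = 0) : mk x = 0 :=
  mk_eq_zero (BSeq.norm_eq_zero_of_eventually h)

theorem norm_mul_eq (x y : CStar C) : ‖x * y‖ = ‖x‖ * ‖y‖ := by
  obtain ⟨x, rfl⟩ := mk_surjective x
  obtain ⟨y, rfl⟩ := mk_surjective y
  rw [← map_mul, norm_mk, norm_mk, norm_mk, BSeq.norm_mul']

theorem norm_algebraMap_eq (c : C) : ‖algebraMap C (CStar C) c‖ = ‖c‖ := by
  rw [algebraMap_eq, norm_mk, BSeq.norm_algebraMap']

theorem exists_mul_eq_one (x : CStar C) (hx : x ≠ 0) : ∃ y, x * y = 1 := by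
  obtain ⟨x, rfl⟩ := mk_surjective x
  have h1 : ‖x‖ ≠ 0 := fun h => hx (mk_eq_zero h)
  obtain ⟨y, hy⟩ := x.exists_inv h1
  refine ⟨mk y, ?_⟩
  rw [← sub_eq_zero, ← map_mul, ← map_one (mk (C := C)), ← map_sub]
  exact mk_eq_zero hy

theorem isField : IsField (CStar C) where
  exists_pair_ne := by
    refine ⟨0, 1, fun h => ?_⟩
    have h1 := norm_algebraMap_eq (1 : C)
    rw [map_one, ← h, norm_zero, norm_one] at h1
    exact zero_ne_one h1
  mul_comm := mul_comm
  mul_inv_cancel := fun {a} ha => exists_mul_eq_one a ha

noncomputable instance : NormedField (CStar C) where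
  __ := (inferInstance : NormedCommRing (CStar C))
  __ := (isField (C := C)).toField
  norm_mul := norm_mul_eq

instance [IsUltrametricDist C] : IsUltrametricDist (CStar C) := by
  apply IsUltrametricDist.isUltrametricDist_of_forall_norm_add_le_max_norm
  intro x y
  obtain ⟨x, rfl⟩ := mk_surjective x
  obtain ⟨y, rfl⟩ := mk_surjective y
  rw [← map_add, norm_mk, norm_mk, norm_mk]
  exact BSeq.norm_add_le_max x y

noncomputable instance instNontriviallyNormedField {C : Type u} [NontriviallyNormedField C] :
    NontriviallyNormedField (CStar C) where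
  non_trivial := by
    obtain ⟨c, hc⟩ := NontriviallyNormedField.non_trivial (α := C)
    exact ⟨algebraMap C (CStar C) c, by rw [norm_algebraMap_eq]; exact hc⟩

instance [CharZero C] : CharZero (CStar C) :=
  charZero_of_injective_algebraMap (algebraMap C (CStar C)).injective

end CStar

end P025H722
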