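import Vale.Agent.P025.R2.H722.CStarSph

/-! # The ultrapower is algebraically closed and its norm is surjective -/

open Filter Topology Polynomial

namespace P025H722

universe u

/-- roots of monic polynomials over an ultrametric field are bounded by the coefficients -/
theorem norm_root_le {C : Type u} [NormedField C] [IsUltrametricDist C] (p : C[X])
    (hp : p.Monic) (M : ℝ) (hM1 : 1 ≤ M) (hM : ∀ i, ‖p.coeff i‖ ≤ M) (z : C)
    (hz : p.eval z = 0) : ‖z‖ ≤ M := by
  by_contra hcon
  push Not at hcon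
  have hz1 : 1 < ‖z‖ := lt_of_le_of_lt hM1 hcon
  have hd : p.natDegree ≠ 0 := by
    intro h0
    have h1 : p = 1 := hp.natDegree_eq_zero.1 h0
    rw [h1, eval_one] at hz
    exact one_ne_zero hz
  obtain ⟨d, hd⟩ : ∃ d, p.natDegree = d + 1 := ⟨p.natDegree - 1, by omega⟩
  rw [eval_eq_sum_range, hd, Finset.sum_range_succ] at hz
  have h2 : p.coeff (d + 1) = 1 := by rw [← hd]; exact hp
  rw [h2, one_mul] at hz
  have h3 : z ^ (d + 1) = -∑ i ∈ Finset.range (d + 1), p.coeff i * z ^ i := by
    linear_combination hz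
  have h4 : ‖z ^ (d + 1)‖ ≤ M * ‖z‖ ^ d := by
    rw [h3, norm_neg]
    apply IsUltrametricDist.norm_sum_le_of_forall_le_of_nonneg (by positivity)
    intro i hi
    rw [norm_mul, norm_pow]
    have h5 : ‖z‖ ^ i ≤ ‖z‖ ^ d :=
      pow_le_pow_right₀ hz1.le (Nat.lt_succ_iff.1 (Finset.mem_range.1 hi))
    exact mul_le_mul (hM i) h5 (by positivity) (by linarith)
  rw [norm_pow, pow_succ, mul_comm M] at h4
  have h6 : 0 < ‖z‖ ^ d := by positivity
  exact absurd (le_of_mul_le_mul_left h4 h6) (not_le.2 hcon)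

/-- the norm of an algebraically closed nontrivially normed field is dense -/
theorem exists_norm_mem {C : Type u} [NontriviallyNormedField C] [IsAlgClosed C] (x y : ℝ)
    (hx : 0 < x) (hxy : x < y) : ∃ c : C, x < ‖c‖ ∧ ‖c‖ < y := by
  obtain ⟨b, hb⟩ := NontriviallyNormedField.non_trivial (α := C)
  have hyx : 1 < y / x := by rwa [one_lt_div hx]
  -- an `n`-th root of `b` has norm close to `1`
  obtain ⟨n, hn⟩ := pow_unbounded_of_one_lt ‖b‖ hyx
  have hn0 : n ≠ 0 := by
    rintro rfl
    rw [pow_zero] at hn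
    linarith
  obtain ⟨β, hβ⟩ := IsAlgClosed.exists_pow_nat_eq b (Nat.pos_of_ne_zero hn0)
  have hβ1 : 1 < ‖β‖ := by
    by_contra h
    push Not at h
    have h1 : ‖b‖ ≤ 1 := by
      rw [← hβ, norm_pow]
      exact pow_le_one₀ (norm_nonneg _) h
    linarith
  have hβ2 : ‖β‖ < y / x := by
    by_contra h
    push Not at h
    have h1 : (y / x) ^ n ≤ ‖b‖ := by
      rw [← hβ, norm_pow]
      exact pow_le_pow_left₀ (by positivity) h n
    linarith
  obtain ⟨k, hk1, hk2⟩ := exists_mem_Ico_zpow hx hβ1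
  refine ⟨β ^ (k + 1), ?_, ?_⟩
  · rw [norm_zpow]
    exact hk2
  · rw [norm_zpow, zpow_add₀ (by positivity), zpow_one]
    calc ‖β‖ ^ k * ‖β‖ ≤ x * ‖β‖ := by gcongr
      _ < x * (y / x) := by gcongr
      _ = y := by field_simp

namespace CStar

/-- the norm of the ultrapower is surjective -/
theorem exists_norm_eq {C : Type u} [NontriviallyNormedField C] [IsAlgClosed C] (r : ℝ)
    (hr : 0 ≤ r) : ∃ x : CStar C, ‖x‖ = r := by
  rcases hr.eq_or_lt with h | h
  · exact ⟨0, by rw [norm_zero, h]⟩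
  · have h1 : ∀ n : ℕ, ∃ c : C, r < ‖c‖ ∧ ‖c‖ < r + 1 / ((n : ℝ) + 1) := fun n =>
      exists_norm_mem r _ h (by
        have : (0 : ℝ) < 1 / ((n : ℝ) + 1) := by positivity
        linarith)
    choose c hc1 hc2 using h1
    refine ⟨mk (BSeq.mk c ⟨r + 1, fun n => ?_⟩), ?_⟩
    · refine (hc2 n).le.trans ?_
      have : (1 : ℝ) / ((n : ℝ) + 1) ≤ 1 := by
        rw [div_le_one (by positivity)]
        have : (0 : ℝ) ≤ n := Nat.cast_nonneg _
        linarith
      linarith
    · rw [norm_mk]
      apply BSeq.norm_eq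
      rw [BSeq.val_mk]
      have h2 : Tendsto (fun n : ℕ => r + 1 / ((n : ℝ) + 1)) atTop (𝓝 (r + 0)) :=
        tendsto_const_nhds.add tendsto_one_div_add_atTop_nhds_zero_nat
      rw [add_zero] at h2
      have h3 : Tendsto (fun n => ‖c n‖) atTop (𝓝 r) :=
        tendsto_of_tendsto_of_tendsto_of_le_of_le tendsto_const_nhds h2
          (fun n => (hc1 n).le) (fun n => (hc2 n).le)
      exact h3.mono_left Nat.hyperfilter_le_atTop

instance {C : Type u} [NormedField C] [IsUltrametricDist C] [IsAlgClosed C] :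
    IsAlgClosed (CStar C) := by
  classical
  apply IsAlgClosed.of_exists_root
  intro p hp hirr
  have hd : p.natDegree ≠ 0 := hirr.natDegree_pos.ne'
  set d := p.natDegree with hdd
  choose b hb using fun i => mk_surjective (p.coeff i)
  choose M hM using fun i => (b i).bdd
  -- a common bound
  let N : ℝ := 1 + ∑ i ∈ Finset.range d, |M i|
  have hN1 : 1 ≤ N := by
    have : 0 ≤ ∑ i ∈ Finset.range d, |M i| := Finset.sum_nonneg (fun i _ => abs_nonneg _)
    simp only [N]; linarith
  have hN : ∀ i < d, ∀ n, ‖(b i).val n‖ ≤ N := by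
    intro i hi n
    have h1 : |M i| ≤ ∑ i ∈ Finset.range d, |M i| :=
      Finset.single_le_sum (f := fun i => |M i|) (fun i _ => abs_nonneg _)
        (Finset.mem_range.2 hi)
    have h2 := (hM i n).trans (le_abs_self _)
    simp only [N]; linarith
  -- the polynomials over `C`
  let q : ℕ → C[X] := fun n => X ^ d + ∑ i ∈ Finset.range d, Polynomial.C ((b i).val n) * X ^ i
  have hdeg : ∀ n, (∑ i ∈ Finset.range d, Polynomial.C ((b i).val n) * X ^ i).degree <
      (d : WithBot ℕ) := by
    intro n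
    refine (Polynomial.degree_sum_le _ _).trans_lt ?_
    refine (Finset.sup_lt_iff (WithBot.bot_lt_coe d)).2 ?_
    intro i hi
    exact (Polynomial.degree_C_mul_X_pow_le i _).trans_lt
      (WithBot.coe_lt_coe.2 (Finset.mem_range.1 hi))
  have hq : ∀ n, (q n).Monic := fun n => monic_X_pow_add (hdeg n)
  have hqd : ∀ n, (q n).degree ≠ 0 := by
    intro n
    have h1 : (q n).degree = d := by
      simp only [q]
      rw [degree_add_eq_left_of_degree_lt (by rw [degree_X_pow]; exact hdeg n), degree_X_pow]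
    rw [h1]
    exact_mod_cast hd
  have hqc : ∀ n i, ‖(q n).coeff i‖ ≤ N := by
    intro n i
    simp only [q, coeff_add, finsetSum_coeff, coeff_C_mul, coeff_X_pow]
    by_cases hi : i < d
    · have h1 : (∑ x ∈ Finset.range d, (b x).val n * if i = x then 1 else 0) = (b i).val n := by
        rw [Finset.sum_eq_single i]
        · simp
        · intro j _ hj
          rw [if_neg (Ne.symm hj), mul_zero]
        · intro h
          exact absurd (Finset.mem_range.2 hi) h
      rw [h1, if_neg hi.ne, zero_add]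
      exact hN i hi n
    · have h1 : (∑ x ∈ Finset.range d, (b x).val n * if i = x then 1 else 0) = 0 := by
        apply Finset.sum_eq_zero
        intro j hj
        have : i ≠ j := by
          have := Finset.mem_range.1 hj
          omega
        rw [if_neg this, mul_zero]
      rw [h1, add_zero]
      split_ifs
      · rw [norm_one]; exact hN1
      · rw [norm_zero]; linarith
  choose z hz using fun n => IsAlgClosed.exists_root (q n) (hqd n)
  have hzN : ∀ n, ‖z n‖ ≤ N := fun n => norm_root_le (q n) (hq n) N hN1 (hqc n) (z n) (hz n)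
  refine ⟨mk (BSeq.mk z ⟨N, hzN⟩), ?_⟩
  have h1 : p.coeff d = 1 := hp
  rw [eval_eq_sum_range, Finset.sum_range_succ, ← hdd, h1, one_mul]
  have h2 : ∑ i ∈ Finset.range d, p.coeff i * mk (BSeq.mk z ⟨N, hzN⟩) ^ i +
      mk (BSeq.mk z ⟨N, hzN⟩) ^ d = mk (∑ i ∈ Finset.range d, b i * (BSeq.mk z ⟨N, hzN⟩) ^ i +
        (BSeq.mk z ⟨N, hzN⟩) ^ d) := by
    rw [map_add, map_sum, map_pow]
    congr 1
    apply Finset.sum_congr rfl
    intro i _
    rw [map_mul, map_pow, hb]
  rw [h2]
  apply mk_eq_zero_of_eventually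
  filter_upwards with n
  have h3 : BSeq.ev n (∑ i ∈ Finset.range d, b i * (BSeq.mk z ⟨N, hzN⟩) ^ i +
      (BSeq.mk z ⟨N, hzN⟩) ^ d) = (q n).eval (z n) := by
    rw [map_add, map_sum, map_pow]
    simp only [q, eval_add, eval_finsetSum, eval_mul, eval_pow, eval_X, eval_C, map_mul,
      map_pow, BSeq.ev_apply, BSeq.val_mk]
    ring
  rw [BSeq.ev_apply] at h3
  rw [h3]
  exact hz n

end CStar

end P025H722
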