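import Vale.Agent.P025.R2.H722.CStar

/-! # Spherical completeness of the ultrapower -/

open Filter Topology Polynomial

namespace P025H722

universe u

namespace CStar

section seq

variable {C : Type u} [NormedField C]

/-- decreasing sequences of closed discs meet -/
theorem exists_mem_balls_seq (a : ℕ → CStar C) (r : ℕ → ℝ)
    (h : ∀ i j, i ≤ j → ‖a j - a i‖ ≤ r i) : ∃ x, ∀ i, ‖x - a i‖ ≤ r i := by
  classical
  choose b hb using fun i => mk_surjective (a i)
  have hb1 : ∀ i j, i ≤ j → ‖b j - b i‖ ≤ r i := by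
    intro i j hij
    have := h i j hij
    rwa [← hb i, ← hb j, ← map_sub, norm_mk] at this
  -- good indices
  let S : ℕ → Set ℕ := fun k =>
    {n | k ≤ n ∧ ∀ i ≤ k, ∀ j ≤ k, i ≤ j → ‖(b j).val n - (b i).val n‖ ≤ r i + 1 / (k + 1)}
  have hS : ∀ k, ∀ᶠ n in (hyperfilter ℕ : Filter ℕ), n ∈ S k := by
    intro k
    have h1 : ∀ᶠ n in (hyperfilter ℕ : Filter ℕ), k ≤ n :=
      Nat.hyperfilter_le_atTop (eventually_ge_atTop k)
    have h2 : ∀ i ∈ Finset.range (k + 1), ∀ᶠ n in (hyperfilter ℕ : Filter ℕ),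
        ∀ j ∈ Finset.range (k + 1), i ≤ j →
          ‖(b j).val n - (b i).val n‖ ≤ r i + 1 / (k + 1) := by
      intro i _
      rw [Filter.eventually_all_finset]
      intro j _
      by_cases hij : i ≤ j
      · have h3 := (b j - b i).tendsto_norm
        have h4 : ‖b j - b i‖ < r i + 1 / (k + 1) := by
          have : (0 : ℝ) < 1 / (k + 1) := by positivity
          linarith [hb1 i j hij]
        filter_upwards [h3.eventually (gt_mem_nhds h4)] with n hn _
        exact hn.le
      · filter_upwards with n hn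
        exact absurd hn hij
    have h5 := (Filter.eventually_all_finset _).2 h2
    filter_upwards [h1, h5] with n hn1 hn2
    exact ⟨hn1, fun i hi j hj hij => hn2 i (Finset.mem_range.2 (by omega)) j
      (Finset.mem_range.2 (by omega)) hij⟩
  -- the largest good index
  let κ : ℕ → ℕ := fun n => Nat.findGreatest (fun k => n ∈ S k) n
  have hκ1 : ∀ k n, n ∈ S k → k ≤ κ n ∧ n ∈ S (κ n) := by
    intro k n hn
    exact ⟨Nat.le_findGreatest hn.1 hn, Nat.findGreatest_spec (P := fun k => n ∈ S k) hn.1 hn⟩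
  -- the diagonal sequence
  obtain ⟨M0, hM0⟩ := (b 0).bdd
  let x : ℕ → C := fun n => if n ∈ S (κ n) then (b (κ n)).val n else 0
  have hx : ∃ M : ℝ, ∀ n, ‖x n‖ ≤ M := by
    refine ⟨M0 + (r 0 + 1), fun n => ?_⟩
    have hr0 : 0 ≤ r 0 := (norm_nonneg _).trans (h 0 0 le_rfl)
    have hM00 : 0 ≤ M0 := (norm_nonneg _).trans (hM0 0)
    by_cases hn : n ∈ S (κ n)
    · simp only [x, if_pos hn]
      have h1 := hn.2 0 (Nat.zero_le _) (κ n) le_rfl (Nat.zero_le _)
      have h2 : (b (κ n)).val n = (b 0).val n + ((b (κ n)).val n - (b 0).val n) := by ring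
      rw [h2]
      refine (norm_add_le _ _).trans (add_le_add (hM0 n) (h1.trans ?_))
      have h3 : (1 : ℝ) / ((κ n : ℝ) + 1) ≤ 1 := by
        rw [div_le_one (by positivity)]
        have : (0 : ℝ) ≤ κ n := Nat.cast_nonneg _
        linarith
      linarith
    · simp only [x, if_neg hn, norm_zero]
      linarith
  refine ⟨mk (BSeq.mk x hx), fun i => ?_⟩
  rw [← hb i, ← map_sub, norm_mk]
  -- for every `k ≥ i` the distance is at most `r i + 1 / (k + 1)`
  have h6 : ∀ k, i ≤ k → ‖BSeq.mk x hx - b i‖ ≤ r i + 1 / (k + 1) := by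
    intro k hik
    apply BSeq.norm_le_of_eventually
    filter_upwards [hS k] with n hn
    obtain ⟨h7, h8⟩ := hκ1 k n hn
    have h9 : (BSeq.mk x hx - b i).val n = (b (κ n)).val n - (b i).val n := by
      simp only [BSeq.val_sub, BSeq.val_mk, Pi.sub_apply]
      simp only [x, if_pos h8]
    rw [h9]
    refine (h8.2 i (by omega) (κ n) le_rfl (by omega)).trans ?_
    have h10 : (1 : ℝ) / ((κ n : ℝ) + 1) ≤ 1 / ((k : ℝ) + 1) := by
      apply one_div_le_one_div_of_le (by positivity)
      have : (k : ℝ) ≤ κ n := by exact_mod_cast h7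
      linarith
    linarith
  have h11 : Tendsto (fun k : ℕ => r i + 1 / ((k : ℝ) + 1)) atTop (𝓝 (r i + 0)) :=
    tendsto_const_nhds.add tendsto_one_div_add_atTop_nhds_zero_nat
  rw [add_zero] at h11
  refine ge_of_tendsto h11 ?_
  filter_upwards [eventually_ge_atTop i] with k hk
  exact h6 k hk

end seq

section ultra

variable {C : Type u} [NormedField C] [IsUltrametricDist C]

/-- **Spherical completeness**: pairwise meeting closed discs have a common point. -/
theorem exists_mem_balls {ι : Type*} (a : ι → CStar C) (r : ι → ℝ)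
    (h : ∀ i j, r i ≤ r j → ‖a i - a j‖ ≤ r j) : ∃ x, ∀ i, ‖x - a i‖ ≤ r i := by
  classical
  rcases isEmpty_or_nonempty ι with hι | hι
  · exact ⟨0, fun i => (hι.false i).elim⟩
  have hr0 : ∀ i, 0 ≤ r i := fun i => (norm_nonneg _).trans (h i i le_rfl)
  have hbdd : BddBelow (Set.range r) := ⟨0, by rintro _ ⟨i, rfl⟩; exact hr0 i⟩
  set ρ : ℝ := ⨅ i, r i with hρ
  by_cases hatt : ∃ i, r i = ρ
  · obtain ⟨i, hi⟩ := hatt
    exact ⟨a i, fun j => h i j (by rw [hi]; exact ciInf_le hbdd j)⟩
  · push Not at hatt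
    have hlt : ∀ i, ρ < r i := fun i => lt_of_le_of_ne (ciInf_le hbdd i) (Ne.symm (hatt i))
    -- a sequence of indices with radii decreasing to `ρ`
    have hex : ∀ x : ℝ, ρ < x → ∃ i, r i < x := fun x hx => exists_lt_of_ciInf_lt hx
    obtain ⟨i0⟩ := hι
    have hstep : ∀ (n : ℕ) (i : ι), ∃ j, r j ≤ r i ∧ r j < ρ + 1 / (n + 1) := by
      intro n i
      obtain ⟨j, hj⟩ := hex (min (r i) (ρ + 1 / (n + 1))) (lt_min (hlt i) (by
        have : (0 : ℝ) < 1 / (n + 1) := by positivity
        linarith))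
      exact ⟨j, hj.le.trans (min_le_left _ _), hj.trans_le (min_le_right _ _)⟩
    choose nx hnx1 hnx2 using hstep
    let s : ℕ → ι := fun n => Nat.rec i0 (fun m i => nx m i) n
    have hs : ∀ n, s (n + 1) = nx n (s n) := fun n => rfl
    have hanti : Antitone (fun n => r (s n)) := by
      apply antitone_nat_of_succ_le
      intro n
      rw [hs]
      exact hnx1 n (s n)
    obtain ⟨x, hx⟩ := exists_mem_balls_seq (fun n => a (s n)) (fun n => r (s n))
      (fun i j hij => h (s j) (s i) (hanti hij))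
    refine ⟨x, fun i => ?_⟩
    -- choose `n` with `r (s (n+1)) < r i`
    obtain ⟨n, hn⟩ := exists_nat_one_div_lt (sub_pos.2 (hlt i))
    have h1 : r (s (n + 1)) ≤ r i := by
      rw [hs]
      have := hnx2 n (s n)
      linarith
    have h2 : x - a i = (x - a (s (n + 1))) + (a (s (n + 1)) - a i) := by ring
    rw [h2]
    exact (IsUltrametricDist.norm_add_le_max _ _).trans
      (max_le ((hx (n + 1)).trans h1) (h _ _ h1))

instance : CompleteSpace (CStar C) := by
  apply Metric.complete_of_cauchySeq_tendsto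
  intro u hu
  rw [cauchySeq_iff_le_tendsto_0] at hu
  obtain ⟨b, hb0, hb, hlim⟩ := hu
  obtain ⟨x, hx⟩ := exists_mem_balls_seq u b (fun i j hij => by
    have := hb j i i hij le_rfl
    rwa [dist_eq_norm] at this)
  refine ⟨x, ?_⟩
  rw [tendsto_iff_dist_tendsto_zero]
  refine squeeze_zero (fun _ => dist_nonneg) (fun n => ?_) hlim
  rw [dist_comm, dist_eq_norm]
  exact hx n

end ultra

end CStar

end P025H722
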