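import Vale.Agent.P025.R2.H722.ExtAct

/-! # The completion of an algebraic extension of `ℚ_p` -/

open Topology

namespace P025H722

universe u

section defs

variable (p : ℕ) [Fact p.Prime] (Kb : Type u) [Field Kb] [Algebra ℚ_[p] Kb]
  [Algebra.IsAlgebraic ℚ_[p] Kb]

/-- `Kb` with the spectral norm -/
def SN (p : ℕ) [Fact p.Prime] (Kb : Type u) [Field Kb] [Algebra ℚ_[p] Kb]
    [Algebra.IsAlgebraic ℚ_[p] Kb] : Type u := Kb

noncomputable instance : NontriviallyNormedField (SN p Kb) :=
  spectralNorm.nontriviallyNormedField ℚ_[p] Kb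

instance : IsUltrametricDist (SN p Kb) :=
  IsUltrametricDist.isUltrametricDist_of_isNonarchimedean_norm
    (S' := SN p Kb) (isNonarchimedean_spectralNorm (K := ℚ_[p]) (L := Kb))

/-- the identity -/
noncomputable def SN.mk : Kb ≃+* SN p Kb := RingEquiv.refl Kb

theorem SN.norm_mk (x : Kb) : ‖SN.mk p Kb x‖ = spectralNorm ℚ_[p] Kb x := rfl

/-- the completion of `Kb` for the spectral norm -/
def Cp (p : ℕ) [Fact p.Prime] (Kb : Type u) [Field Kb] [Algebra ℚ_[p] Kb]
    [Algebra.IsAlgebraic ℚ_[p] Kb] : Type u := UniformSpace.Completion (SN p Kb)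

namespace Cp

noncomputable instance instNormedField : NormedField (Cp p Kb) :=
  inferInstanceAs (NormedField (UniformSpace.Completion (SN p Kb)))

instance : CompleteSpace (Cp p Kb) :=
  inferInstanceAs (CompleteSpace (UniformSpace.Completion (SN p Kb)))

/-- the embedding of `Kb` -/
noncomputable def emb : Kb →+* Cp p Kb :=
  (UniformSpace.Completion.coeRingHom (α := SN p Kb)).comp (SN.mk p Kb : Kb →+* SN p Kb)

noncomputable instance : Algebra Kb (Cp p Kb) := (emb p Kb).toAlgebra

theorem algebraMap_eq : algebraMap Kb (Cp p Kb) = emb p Kb := rfl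

variable {p Kb} in
theorem norm_algebraMap (x : Kb) : ‖algebraMap Kb (Cp p Kb) x‖ = spectralNorm ℚ_[p] Kb x := by
  change ‖((SN.mk p Kb x : SN p Kb) : UniformSpace.Completion (SN p Kb))‖ = _
  rw [UniformSpace.Completion.norm_coe]
  rfl

theorem denseRange_algebraMap : DenseRange (algebraMap Kb (Cp p Kb)) := by
  have h := UniformSpace.Completion.denseRange_coe (α := SN p Kb)
  exact h.comp (SN.mk p Kb).surjective.denseRange (UniformSpace.Completion.continuous_coe _)

noncomputable instance : NontriviallyNormedField (Cp p Kb) where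
  non_trivial := by
    obtain ⟨x, hx⟩ := NontriviallyNormedField.non_trivial (α := SN p Kb)
    obtain ⟨y, rfl⟩ := (SN.mk p Kb).surjective x
    refine ⟨algebraMap Kb (Cp p Kb) y, ?_⟩
    rw [norm_algebraMap, ← SN.norm_mk]
    exact hx

instance : IsUltrametricDist (Cp p Kb) := by
  refine IsUltrametricDist.isUltrametricDist_of_forall_norm_add_le_max_norm fun x y => ?_
  refine (denseRange_algebraMap p Kb).induction_on₂
    (p := fun x y : Cp p Kb => ‖x + y‖ ≤ max ‖x‖ ‖y‖) ?_ ?_ x y
  · exact isClosed_le (continuous_fst.add continuous_snd).norm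
      (continuous_fst.norm.max continuous_snd.norm)
  · intro f g
    rw [← map_add, norm_algebraMap, norm_algebraMap, norm_algebraMap]
    exact isNonarchimedean_spectralNorm f g

instance : CharZero (Cp p Kb) := by
  have h : CharZero Kb := charZero_of_injective_algebraMap (algebraMap ℚ_[p] Kb).injective
  exact charZero_of_injective_algebraMap (algebraMap Kb (Cp p Kb)).injective

instance [IsAlgClosed Kb] : IsAlgClosed (Cp p Kb) :=
  IsAlgClosed.of_denseRange (denseRange_algebraMap p Kb)

theorem norm_natCast (n : ℕ) : ‖(n : Cp p Kb)‖ = ‖(n : ℚ_[p])‖ := by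
  have h1 : (n : Cp p Kb) = algebraMap Kb (Cp p Kb) (algebraMap ℚ_[p] Kb n) := by
    rw [map_natCast, map_natCast]
  rw [h1, norm_algebraMap, spectralNorm_extends]

theorem norm_p_lt_one : ‖(p : Cp p Kb)‖ < 1 := by
  rw [norm_natCast]
  exact Padic.norm_p_lt_one

theorem norm_p : ‖(p : Cp p Kb)‖ = (p : ℝ)⁻¹ := by
  rw [norm_natCast]
  exact Padic.norm_p

end Cp

end defs

section action

variable {p : ℕ} [Fact p.Prime] {Kb : Type u} [Field Kb] [Algebra ℚ_[p] Kb]
  [Algebra.IsAlgebraic ℚ_[p] Kb]

/-- an action by automorphisms over `ℚ_p` preserves the spectral norm -/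
theorem spectralNorm_smul_eq {G : Type*} [Group G] [MulSemiringAction G Kb]
    [SMulCommClass G ℚ_[p] Kb] (g : G) (x : Kb) :
    spectralNorm ℚ_[p] Kb (g • x) = spectralNorm ℚ_[p] Kb x := by
  have h := spectralNorm_eq_of_equiv (K := ℚ_[p]) (L := Kb)
    (MulSemiringAction.toAlgEquiv ℚ_[p] Kb g) x
  exact h.symm

end action

namespace Cp

variable {p : ℕ} [Fact p.Prime] {Kb : Type u} [Field Kb] [Algebra ℚ_[p] Kb]
  [Algebra.IsAlgebraic ℚ_[p] Kb] {G : Type*} [Group G] [MulSemiringAction G Kb]
  [SMulCommClass G ℚ_[p] Kb]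

theorem norm_emb_smul (g : G) (x : Kb) : ‖emb p Kb (g • x)‖ = ‖emb p Kb x‖ := by
  rw [← algebraMap_eq, norm_algebraMap, norm_algebraMap, spectralNorm_smul_eq]

/-- the action on the completion -/
noncomputable instance instMulSemiringAction : MulSemiringAction G (Cp p Kb) :=
  extAction (emb p Kb) (denseRange_algebraMap p Kb) (fun g x => norm_emb_smul g x)

theorem smul_algebraMap (g : G) (x : Kb) :
    g • algebraMap Kb (Cp p Kb) x = algebraMap Kb (Cp p Kb) (g • x) :=
  extHom_apply (emb p Kb) (denseRange_algebraMap p Kb) (fun g x => norm_emb_smul g x) g x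

instance : NormAct G (Cp p Kb) where
  norm_smul_eq g b :=
    norm_extHom (emb p Kb) (denseRange_algebraMap p Kb) (fun g x => norm_emb_smul g x) g b

/-- the action is continuous in `g` if the stabilizers of the elements of `Kb` are open -/
theorem continuous_smul [TopologicalSpace G] [IsTopologicalGroup G]
    (hst : ∀ x : Kb, IsOpen (MulAction.stabilizer G x : Set G)) (b : Cp p Kb) :
    Continuous (fun g : G => g • b) := by
  apply continuous_smul_of_dense (algebraMap Kb (Cp p Kb)) (denseRange_algebraMap p Kb)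
  intro x
  have h1 : (fun g : G => g • algebraMap Kb (Cp p Kb) x) =
      fun g : G => algebraMap Kb (Cp p Kb) (g • x) := by
    funext g
    exact smul_algebraMap g x
  rw [h1]
  apply IsLocallyConstant.continuous
  apply IsLocallyConstant.comp (f := fun g : G => g • x)
  rw [IsLocallyConstant.iff_exists_open]
  intro g
  refine ⟨(fun h : G => g⁻¹ * h) ⁻¹' (MulAction.stabilizer G x : Set G),
    (hst x).preimage (continuous_const_mul g⁻¹), ?_, ?_⟩
  · change g⁻¹ * g ∈ MulAction.stabilizer G x
    rw [inv_mul_cancel]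
    exact Subgroup.one_mem _
  · intro h hh
    have h2 : (g⁻¹ * h) • x = x := hh
    rw [mul_smul, inv_smul_eq_iff] at h2
    exact h2

end Cp

end P025H722
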