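import Mathlib

/-! # Isometric actions extend to completions -/

open Topology

namespace P025H722

/-- the group `G` acts by isometries of the normed field `B` -/
class NormAct (G B : Type*) [Group G] [NormedField B] [MulSemiringAction G B] : Prop where
  norm_smul_eq : ∀ (g : G) (b : B), ‖g • b‖ = ‖b‖

section ext

variable {A B : Type*} [Field A] [NormedField B] [CompleteSpace B]

/-- an isometric ring homomorphism on a dense subfield extends -/
theorem exists_ext (i : A →+* B) (hi : DenseRange i) (f : A →+* B) (hf : ∀ a, ‖f a‖ = ‖i a‖) :
    ∃ F : B →+* B, (∀ a, F (i a) = f a) ∧ ∀ b, ‖F b‖ = ‖b‖ := by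
  let inst : PseudoMetricSpace A := PseudoMetricSpace.induced i inferInstance
  have h1 : Isometry i := fun _ _ => rfl
  have h2 : Isometry f := by
    apply Isometry.of_dist_eq
    intro x y
    change dist (f x) (f y) = dist (i x) (i y)
    rw [dist_eq_norm, dist_eq_norm, ← map_sub, ← map_sub, hf]
  have ue : IsUniformInducing i := h1.isUniformInducing
  let F := IsDenseInducing.extendRingHom ue hi h2.uniformContinuous
  have hF : ∀ a, F (i a) = f a := fun a =>
    IsDenseInducing.extend_eq (ue.isDenseInducing hi) h2.continuous a
  have hFc : Continuous F := (uniformContinuous_uniformly_extend ue hi h2.uniformContinuous).continuous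
  refine ⟨F, hF, fun b => ?_⟩
  refine hi.induction_on (p := fun b => ‖F b‖ = ‖b‖) b ?_ ?_
  · exact isClosed_eq hFc.norm continuous_norm
  · intro a
    rw [hF, hf]

omit [CompleteSpace B] in
theorem continuous_of_norm_eq (F : B →+* B) (hF : ∀ b, ‖F b‖ = ‖b‖) : Continuous F := by
  have : Isometry F := by
    apply Isometry.of_dist_eq
    intro x y
    rw [dist_eq_norm, dist_eq_norm, ← map_sub, hF]
  exact this.continuous

variable {G : Type*} [Group G] [MulSemiringAction G A]

/-- the extension of the action of `g` -/
noncomputable def extHom (i : A →+* B) (hi : DenseRange i)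
    (hn : ∀ (g : G) (a : A), ‖i (g • a)‖ = ‖i a‖) (g : G) : B →+* B :=
  (exists_ext i hi (i.comp (MulSemiringAction.toRingHom G A g)) (hn g)).choose

variable (i : A →+* B) (hi : DenseRange i) (hn : ∀ (g : G) (a : A), ‖i (g • a)‖ = ‖i a‖)

theorem extHom_apply (g : G) (a : A) : extHom i hi hn g (i a) = i (g • a) :=
  (exists_ext i hi (i.comp (MulSemiringAction.toRingHom G A g)) (hn g)).choose_spec.1 a

theorem norm_extHom (g : G) (b : B) : ‖extHom i hi hn g b‖ = ‖b‖ :=
  (exists_ext i hi (i.comp (MulSemiringAction.toRingHom G A g)) (hn g)).choose_spec.2 b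

theorem continuous_extHom (g : G) : Continuous (extHom i hi hn g) :=
  continuous_of_norm_eq _ (norm_extHom i hi hn g)

theorem extHom_one (b : B) : extHom i hi hn 1 b = b := by
  refine hi.induction_on (p := fun b => extHom i hi hn 1 b = b) b ?_ ?_
  · exact isClosed_eq (continuous_extHom i hi hn 1) continuous_id
  · intro a
    rw [extHom_apply, one_smul]

theorem extHom_mul (g g' : G) (b : B) :
    extHom i hi hn (g * g') b = extHom i hi hn g (extHom i hi hn g' b) := by
  refine hi.induction_on
    (p := fun b => extHom i hi hn (g * g') b = extHom i hi hn g (extHom i hi hn g' b)) b ?_ ?_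
  · exact isClosed_eq (continuous_extHom i hi hn _)
      ((continuous_extHom i hi hn g).comp (continuous_extHom i hi hn g'))
  · intro a
    rw [extHom_apply, extHom_apply, extHom_apply, mul_smul]

/-- the extended action -/
@[reducible] noncomputable def extAction : MulSemiringAction G B where
  smul g b := extHom i hi hn g b
  one_smul b := extHom_one i hi hn b
  mul_smul g g' b := extHom_mul i hi hn g g' b
  smul_zero g := map_zero (extHom i hi hn g)
  smul_add g x y := map_add (extHom i hi hn g) x y
  smul_one g := map_one (extHom i hi hn g)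
  smul_mul g x y := map_mul (extHom i hi hn g) x y

end ext

/-- pointwise continuity of an isometric action can be checked on a dense subset -/
theorem continuous_smul_of_dense {G B : Type*} [Group G] [NormedField B] [MulSemiringAction G B]
    [NormAct G B] [TopologicalSpace G] {A : Type*} (i : A → B) (hi : DenseRange i)
    (h : ∀ a, Continuous (fun g : G => g • i a)) (b : B) : Continuous (fun g : G => g • b) := by
  apply continuous_of_uniform_approx_of_continuous
  intro u hu
  obtain ⟨ε, hε, hu⟩ := Metric.mem_uniformity_dist.1 hu
  obtain ⟨a, ha⟩ := hi.exists_dist_lt b hε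
  refine ⟨fun g => g • i a, h a, fun g => hu ?_⟩
  rw [dist_eq_norm, ← smul_sub, NormAct.norm_smul_eq, ← dist_eq_norm]
  exact ha

end P025H722
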