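import Vale.Agent.P025.R2.H720.NC
import Vale.Agent.P025.R2.H544.Defs

/-! # Finite levels of the base change field `NC C kb N` (helper722) -/

set_option linter.unusedSectionVars false

open scoped TensorProduct
open Polynomial

universe u v w w'

namespace P025H722

open P025H720 P025H544

section map

variable (C : Type u) {kb : Type v} {L : Type w} {N : Type w'} [Field C] [Field kb]
  [IsAlgClosed kb] [Field L] [Field N] [Algebra kb C] [Algebra kb L] [Algebra kb N]

/-- the map `C ⊗ L → C ⊗ N` -/
noncomputable def tMap (f : L →ₐ[kb] N) : C ⊗[kb] L →ₐ[C] C ⊗[kb] N :=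
  Algebra.TensorProduct.map (AlgHom.id C C) f

@[simp] theorem tMap_tmul (f : L →ₐ[kb] N) (c : C) (x : L) :
    tMap C f (c ⊗ₜ[kb] x) = c ⊗ₜ[kb] f x := by
  simp [tMap]

theorem tMap_injective (f : L →ₐ[kb] N) : Function.Injective (tMap C f) := by
  have h := Module.Flat.lTensor_preserves_injective_linearMap (M := C) f.toLinearMap f.injective
  intro x y hxy
  apply h
  exact hxy

/-- the map `NC C kb L → NC C kb N` -/
noncomputable def ncMap (f : L →ₐ[kb] N) : NC C kb L →+* NC C kb N :=
  IsFractionRing.map (A := C ⊗[kb] L) (B := C ⊗[kb] N) (K := NC C kb L) (L := NC C kb N)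
    (j := (tMap C f : C ⊗[kb] L →+* C ⊗[kb] N)) (tMap_injective C f)

theorem ncMap_algebraMap (f : L →ₐ[kb] N) (z : C ⊗[kb] L) :
    ncMap C f (algebraMap (C ⊗[kb] L) (NC C kb L) z) =
      algebraMap (C ⊗[kb] N) (NC C kb N) (tMap C f z) := by
  unfold ncMap IsFractionRing.map
  exact IsLocalization.map_eq (M := nonZeroDivisors (C ⊗[kb] L))
    (T := nonZeroDivisors (C ⊗[kb] N)) (S := NC C kb L) (Q := NC C kb N) _ z

@[simp] theorem ncMap_C (f : L →ₐ[kb] N) (c : C) :
    ncMap C f (algebraMap C (NC C kb L) c) = algebraMap C (NC C kb N) c := by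
  rw [algebraMap_C_NC, ncMap_algebraMap, tMap_tmul, map_one, algebraMap_C_NC]

@[simp] theorem ncMap_N (f : L →ₐ[kb] N) (x : L) :
    ncMap C f (algebraMap L (NC C kb L) x) = algebraMap N (NC C kb N) (f x) := by
  rw [algebraMap_N_NC, ncMap_algebraMap, tMap_tmul, algebraMap_N_NC]

theorem ncMap_injective (f : L →ₐ[kb] N) : Function.Injective (ncMap C f) :=
  (ncMap C f).injective

/-- two ring homomorphisms on `NC` which agree on `C` and on `N` are equal -/
theorem nc_hom_ext {E : Type*} [Field E] (a b : NC C kb L →+* E)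
    (h1 : ∀ c : C, a (algebraMap C (NC C kb L) c) = b (algebraMap C (NC C kb L) c))
    (h2 : ∀ x : L, a (algebraMap L (NC C kb L) x) = b (algebraMap L (NC C kb L) x)) : a = b := by
  have h3 : ∀ z : C ⊗[kb] L, a (algebraMap (C ⊗[kb] L) (NC C kb L) z) =
      b (algebraMap (C ⊗[kb] L) (NC C kb L) z) := by
    intro z
    induction z using TensorProduct.induction_on with
    | zero => rw [map_zero, map_zero, map_zero]
    | add x y hx hy => rw [map_add, map_add, map_add, hx, hy]
    | tmul c x => rw [tmul_eq, map_mul, map_mul, h1, h2]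
  ext z
  obtain ⟨x, y, hy, rfl⟩ := IsFractionRing.div_surjective (A := C ⊗[kb] L) z
  rw [map_div₀, map_div₀, h3, h3]

theorem ncMap_comp {N' : Type*} [Field N'] [Algebra kb N'] (f : L →ₐ[kb] N) (g : N →ₐ[kb] N')
    (z : NC C kb L) : ncMap C g (ncMap C f z) = ncMap C (g.comp f) z := by
  have h : (ncMap C g).comp (ncMap C f) = ncMap C (g.comp f) := by
    apply nc_hom_ext
    · intro c
      rw [RingHom.comp_apply, ncMap_C, ncMap_C, ncMap_C]
    · intro x
      rw [RingHom.comp_apply, ncMap_N, ncMap_N, ncMap_N]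
      rfl
  exact RingHom.congr_fun h z

theorem ncMap_id (z : NC C kb L) : ncMap C (AlgHom.id kb L) z = z := by
  have h : ncMap C (AlgHom.id kb L) = RingHom.id _ := by
    apply nc_hom_ext
    · intro c
      rw [ncMap_C]
      rfl
    · intro x
      rw [ncMap_N]
      rfl
  rw [h]
  rfl

/-- the ring homomorphism `NCT C kb L T → NCT C kb N T'` -/
noncomputable def nctRing (f : L →ₐ[kb] N) (T : L) (T' : N) : NCT C kb L T →+* NCT C kb N T' :=
  ncMap C f

theorem nctRing_C (f : L →ₐ[kb] N) (T : L) (T' : N) (c : C) :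
    nctRing C f T T' (algebraMap C (NCT C kb L T) c) = algebraMap C (NCT C kb N T') c :=
  ncMap_C C f c

theorem nctRing_N (f : L →ₐ[kb] N) (T : L) (T' : N) (x : L) :
    nctRing C f T T' (algebraMap L (NCT C kb L T) x) = algebraMap N (NCT C kb N T') (f x) :=
  ncMap_N C f x

/-- the map `NCT C kb L T → NCT C kb N T'` over `C(t)` -/
noncomputable def nctMap (f : L →ₐ[kb] N) (T : L) (T' : N) (h : f T = T')
    [Fact (Transcendental kb T)] [Fact (Transcendental kb T')] :
    NCT C kb L T →ₐ[RatFunc C] NCT C kb N T' where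
  toRingHom := nctRing C f T T'
  commutes' := by
    intro r
    change nctRing C f T T' (algebraMap (RatFunc C) (NCT C kb L T) r) =
      algebraMap (RatFunc C) (NCT C kb N T') r
    have hp : ∀ P : C[X], nctRing C f T T' (algebraMap (RatFunc C) (NCT C kb L T)
        (algebraMap C[X] (RatFunc C) P)) =
        algebraMap (RatFunc C) (NCT C kb N T') (algebraMap C[X] (RatFunc C) P) := by
      intro P
      rw [algebraMap_T_poly, algebraMap_T_poly]
      induction P using Polynomial.induction_on' with
      | add P Q hP hQ => rw [map_add, map_add, map_add, hP, hQ]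
      | monomial n a =>
        rw [Polynomial.aeval_monomial, Polynomial.aeval_monomial, map_mul, map_pow, nctRing_C,
          nctRing_N, h]
    rw [← r.num_div_denom, map_div₀, map_div₀, map_div₀, hp, hp]

theorem nctMap_apply (f : L →ₐ[kb] N) (T : L) (T' : N) (h : f T = T')
    [Fact (Transcendental kb T)] [Fact (Transcendental kb T')] (z : NCT C kb L T) :
    nctMap C f T T' h z = ncMap C f z := rfl

end map

section level

variable (C : Type u) {kb : Type v} {N : Type w} [Field C] [Field kb]
  [IsAlgClosed kb] [Field N] [Algebra kb C] [Algebra kb N]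

theorem exists_level_tensor (z : C ⊗[kb] N) : ∃ t : Finset N, ∀ (L : Type w') [Field L]
    [Algebra kb L] (f : L →ₐ[kb] N), (t : Set N) ⊆ Set.range f →
    ∃ y : C ⊗[kb] L, tMap C f y = z := by
  classical
  induction z using TensorProduct.induction_on with
  | zero => exact ⟨∅, fun L _ _ f _ => ⟨0, map_zero _⟩⟩
  | tmul c x =>
    refine ⟨{x}, fun L _ _ f hL => ?_⟩
    have hx : x ∈ Set.range f := hL (by simp)
    obtain ⟨y, rfl⟩ := hx
    exact ⟨c ⊗ₜ[kb] y, by rw [tMap_tmul]⟩
  | add x y hx hy =>
    obtain ⟨s, hs⟩ := hx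
    obtain ⟨t, ht⟩ := hy
    refine ⟨s ∪ t, fun L _ _ f hL => ?_⟩
    rw [Finset.coe_union, Set.union_subset_iff] at hL
    obtain ⟨a, ha⟩ := hs L f hL.1
    obtain ⟨b, hb⟩ := ht L f hL.2
    exact ⟨a + b, by rw [map_add, ha, hb]⟩

theorem exists_level_one (z : NC C kb N) : ∃ t : Finset N, ∀ (L : Type w') [Field L]
    [Algebra kb L] (f : L →ₐ[kb] N), (t : Set N) ⊆ Set.range f →
    ∃ y : NC C kb L, ncMap C f y = z := by
  classical
  obtain ⟨a, b, hb, rfl⟩ := IsFractionRing.div_surjective (A := C ⊗[kb] N) z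
  obtain ⟨s, hs⟩ := exists_level_tensor.{u, v, w, w'} C a
  obtain ⟨t, ht⟩ := exists_level_tensor.{u, v, w, w'} C b
  refine ⟨s ∪ t, fun L _ _ f hL => ?_⟩
  rw [Finset.coe_union, Set.union_subset_iff] at hL
  obtain ⟨a', ha⟩ := hs L f hL.1
  obtain ⟨b', hb'⟩ := ht L f hL.2
  refine ⟨algebraMap (C ⊗[kb] L) (NC C kb L) a' / algebraMap (C ⊗[kb] L) (NC C kb L) b', ?_⟩
  rw [map_div₀, ncMap_algebraMap, ncMap_algebraMap, ha, hb']

/-- every finite set of elements of `NC` lives at a finite level -/
theorem exists_level (s : Finset (NC C kb N)) : ∃ t : Finset N, ∀ (L : Type w') [Field L]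
    [Algebra kb L] (f : L →ₐ[kb] N), (t : Set N) ⊆ Set.range f → ∀ z ∈ s,
    ∃ y : NC C kb L, ncMap C f y = z := by
  classical
  choose t ht using exists_level_one.{u, v, w, w'} C (kb := kb) (N := N)
  refine ⟨s.biUnion t, fun L _ _ f hL z hz => ht z L f ?_⟩
  refine subset_trans ?_ hL
  intro x hx
  rw [Finset.mem_coe] at hx ⊢
  exact Finset.mem_biUnion.2 ⟨z, hz, hx⟩

/-- every finite set of elements of `A ⊗ NCT` lives at a finite level -/
theorem exists_level_pt_one (A : Type*) [CommRing A] [Algebra (RatFunc C) A] (T : N)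
    [Fact (Transcendental kb T)] (z : A ⊗[RatFunc C] NCT C kb N T) :
    ∃ t : Finset N, ∀ (L : Type w') [Field L] [Algebra kb L] (f : L →ₐ[kb] N),
      (t : Set N) ⊆ Set.range f → ∀ (TL : L) [Fact (Transcendental kb TL)] (h : f TL = T),
      ∃ y : A ⊗[RatFunc C] NCT C kb L TL, tL (RatFunc C) A (nctMap C f TL T h) y = z := by
  classical
  induction z using TensorProduct.induction_on with
  | zero => exact ⟨∅, fun L _ _ f _ TL _ h => ⟨0, map_zero _⟩⟩
  | tmul a x =>
    obtain ⟨t, ht⟩ := exists_level_one.{u, v, w, w'} C (kb := kb) (N := N) x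
    refine ⟨t, fun L _ _ f hL TL _ h => ?_⟩
    obtain ⟨y, hy⟩ := ht L f hL
    let y' : NCT C kb L TL := y
    have hy' : nctMap C f TL T h y' = x := hy
    exact ⟨a ⊗ₜ[RatFunc C] y', by rw [tL_tmul, hy']⟩
  | add x y hx hy =>
    obtain ⟨s, hs⟩ := hx
    obtain ⟨t, ht⟩ := hy
    refine ⟨s ∪ t, fun L _ _ f hL TL _ h => ?_⟩
    rw [Finset.coe_union, Set.union_subset_iff] at hL
    obtain ⟨a, ha⟩ := hs L f hL.1 TL h
    obtain ⟨b, hb⟩ := ht L f hL.2 TL h
    exact ⟨a + b, by rw [map_add, ha, hb]⟩

theorem exists_level_pt (A : Type*) [CommRing A] [Algebra (RatFunc C) A] (T : N)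
    [Fact (Transcendental kb T)] (s : Finset (A ⊗[RatFunc C] NCT C kb N T)) :
    ∃ t : Finset N, ∀ (L : Type w') [Field L] [Algebra kb L] (f : L →ₐ[kb] N),
      (t : Set N) ⊆ Set.range f → ∀ (TL : L) [Fact (Transcendental kb TL)] (h : f TL = T),
      ∀ z ∈ s, ∃ y : A ⊗[RatFunc C] NCT C kb L TL,
        tL (RatFunc C) A (nctMap C f TL T h) y = z := by
  classical
  choose t ht using exists_level_pt_one.{u, v, w, w'} C (kb := kb) (N := N) A T
  refine ⟨s.biUnion t, fun L _ _ f hL TL _ h z hz => ht z L f ?_ TL h⟩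
  refine subset_trans ?_ hL
  intro x hx
  rw [Finset.mem_coe] at hx ⊢
  exact Finset.mem_biUnion.2 ⟨z, hz, hx⟩

end level

section trans

variable {kb : Type v} {L : Type w} {N : Type w'} [Field kb] [Field L] [Field N] [Algebra kb L]
  [Algebra kb N]

theorem fact_transcendental (f : L →ₐ[kb] N) (T : L) {T' : N} (h : f T = T')
    [hT : Fact (Transcendental kb T')] : Fact (Transcendental kb T) := by
  refine ⟨fun h1 => hT.out ?_⟩
  rw [← h]
  exact h1.algHom f

theorem fact_transcendental_map (f : L →ₐ[kb] N) (T : L) [hT : Fact (Transcendental kb T)] :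
    Fact (Transcendental kb (f T)) :=
  ⟨fun h1 => hT.out ((isAlgebraic_algHom_iff f f.injective).1 h1)⟩

end trans

section trdeg

variable {kb : Type v} {L : Type w} {N : Type w'} [Field kb] [Field L] [Field N] [Algebra kb L]
  [Algebra kb N]

theorem trdegOne_of_algHom [TrdegOne kb N] (f : L →ₐ[kb] N) : TrdegOne kb L where
  alg T x hT := by
    have hT0 : Fact (Transcendental kb T) := ⟨hT⟩
    have hT' : Transcendental kb (f T) := (fact_transcendental_map f T).out
    obtain ⟨P, hP0, hP⟩ := TrdegOne.alg (f T) (f x) hT'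
    let φ : Algebra.adjoin kb {T} →ₐ[kb] Algebra.adjoin kb {f T} :=
      (f.comp (Algebra.adjoin kb {T}).val).codRestrict (Algebra.adjoin kb {f T}) (by
        rintro ⟨y, hy⟩
        change f y ∈ Algebra.adjoin kb {f T}
        rw [Algebra.adjoin_singleton_eq_range_aeval] at hy ⊢
        obtain ⟨Q, rfl⟩ := hy
        exact ⟨Q, Polynomial.aeval_algHom_apply f T Q⟩)
    have hsurj : Function.Surjective φ := by
      rintro ⟨y, hy⟩
      have hy2 := hy
      rw [Algebra.adjoin_singleton_eq_range_aeval] at hy2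
      obtain ⟨Q, hQ⟩ := hy2
      refine ⟨⟨aeval T Q, ?_⟩, ?_⟩
      · rw [Algebra.adjoin_singleton_eq_range_aeval]
        exact ⟨Q, rfl⟩
      · apply Subtype.ext
        change f (aeval T Q) = y
        rw [← hQ]
        exact (Polynomial.aeval_algHom_apply f T Q).symm
    have halg : IsAlgebraic (Algebra.adjoin kb {f T}) (f x) := ⟨P, hP0, hP⟩
    exact IsAlgebraic.of_ringHom_of_comp_eq (f := φ) (g := f) halg hsurj f.injective
      (by ext a; rfl)

end trdeg

section finite

variable (C : Type u) (kb : Type v) (L : Type w) [Field C] [Field kb]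
  [IsAlgClosed kb] [Field L] [Algebra kb C] [Algebra kb L] [TrdegOne kb L]

/-- `NCT C kb L T` is finite over `C(t)` if `L` is finitely generated -/
theorem finite_NCT (T : L) [Fact (Transcendental kb T)] (s : Finset L)
    (hs : IntermediateField.adjoin kb (s : Set L) = ⊤) :
    FiniteDimensional (RatFunc C) (NCT C kb L T) := by
  let S : Set (NCT C kb L T) := (algebraMap L (NCT C kb L T)) '' (s : Set L)
  have hSfin : Finite S := (s.finite_toSet.image _).to_subtype
  let E : IntermediateField (RatFunc C) (NCT C kb L T) := IntermediateField.adjoin (RatFunc C) S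
  have hE : FiniteDimensional (RatFunc C) E :=
    IntermediateField.finiteDimensional_adjoin (K := RatFunc C) (S := S)
      (fun x _ => Algebra.IsIntegral.isIntegral x)
  have hL : ∀ x : L, algebraMap L (NCT C kb L T) x ∈ E := by
    intro x
    have hx : x ∈ IntermediateField.adjoin kb (s : Set L) := by
      rw [hs]
      trivial
    induction hx using IntermediateField.adjoin_induction with
    | mem x hx => exact IntermediateField.subset_adjoin _ _ ⟨x, hx, rfl⟩
    | algebraMap a =>
      rw [← IsScalarTower.algebraMap_apply kb L (NCT C kb L T),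
        IsScalarTower.algebraMap_apply kb C (NCT C kb L T),
        IsScalarTower.algebraMap_apply C (RatFunc C) (NCT C kb L T)]
      exact E.algebraMap_mem _
    | add a b _ _ ha hb =>
      rw [map_add]
      exact E.add_mem ha hb
    | inv a _ ha =>
      rw [map_inv₀]
      exact E.inv_mem ha
    | mul a b _ _ ha hb =>
      rw [map_mul]
      exact E.mul_mem ha hb
  have htop : E = ⊤ := by
    rw [eq_top_iff]
    intro z _
    have hz : z ∈ Submodule.span (RatFunc C) (Set.range (algebraMap L (NCT C kb L T))) := by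
      rw [span_N]
      trivial
    induction hz using Submodule.span_induction with
    | mem y hy =>
      obtain ⟨x, rfl⟩ := hy
      exact hL x
    | zero => exact E.zero_mem
    | add a b _ _ ha hb => exact E.add_mem (ha trivial) (hb trivial)
    | smul c a _ ha =>
      rw [Algebra.smul_def]
      exact E.mul_mem (E.algebraMap_mem c) (ha trivial)
  rw [htop] at hE
  exact (IntermediateField.topEquiv (F := RatFunc C)
    (E := NCT C kb L T)).toLinearEquiv.finiteDimensional

end finite

end P025H722
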