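import Vale.Agent.P025.R2.H722.Lev
import Vale.Agent.P025.R2.H720.Tree

/-! # Finite levels and the group action (helper722) -/

set_option linter.unusedSectionVars false

open scoped TensorProduct
open Polynomial

universe u v w w'

namespace P025H722

open P025H720 P025H544

section equi

variable {G : Type*} [Group G] (C : Type u) {kb : Type v} {L : Type w} {N : Type w'} [Field C]
  [Field kb] [IsAlgClosed kb] [Field L] [Field N] [Algebra kb C] [Algebra kb L] [Algebra kb N]
  [MulSemiringAction G kb] [MulSemiringAction G C] [MulSemiringAction G L]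
  [MulSemiringAction G N] [Equi G kb C] [Equi G kb L] [Equi G kb N]

theorem tMap_smul (f : L →ₐ[kb] N) (hf : ∀ (g : G) (x : L), f (g • x) = g • f x) (g : G)
    (z : C ⊗[kb] L) : tMap C f (g • z) = g • tMap C f z := by
  induction z using TensorProduct.induction_on with
  | zero => rw [smul_zero, map_zero, smul_zero]
  | add x y hx hy => rw [smul_add, map_add, map_add, hx, hy, smul_add]
  | tmul c x => rw [smul_tmul_semi, tMap_tmul, tMap_tmul, smul_tmul_semi, hf]

/-- the transition maps are equivariant -/
theorem ncMap_smul (f : L →ₐ[kb] N) (hf : ∀ (g : G) (x : L), f (g • x) = g • f x) (g : G)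
    (z : NC C kb L) : ncMap C f (g • z) = g • ncMap C f z := by
  obtain ⟨x, y, hy, rfl⟩ := IsFractionRing.div_surjective (A := C ⊗[kb] L) z
  rw [smul_div₀', smul_algebraMap_tensor, smul_algebraMap_tensor, map_div₀, map_div₀,
    ncMap_algebraMap, ncMap_algebraMap, ncMap_algebraMap, ncMap_algebraMap, tMap_smul C f hf,
    tMap_smul C f hf, smul_div₀', smul_algebraMap_tensor, smul_algebraMap_tensor]

theorem nctMap_smul (f : L →ₐ[kb] N) (hf : ∀ (g : G) (x : L), f (g • x) = g • f x) (T : L)
    (T' : N) (h : f T = T') [Fact (Transcendental kb T)] [Fact (Transcendental kb T')] (g : G)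
    (z : NCT C kb L T) : nctMap C f T T' h (g • z) = g • nctMap C f T T' h z :=
  ncMap_smul C f hf g z

end equi

section level

variable {G : Type*} [Group G] {kb : Type v} {N : Type w} [Field kb] [Field N] [Algebra kb N]
  [MulSemiringAction G kb] [MulSemiringAction G N] [Equi G kb N]

/-- `L` is stable under `G` -/
class StableLevel (G : Type*) [Group G] {kb : Type v} {N : Type w} [Field kb] [Field N]
    [Algebra kb N] [MulSemiringAction G N] (L : IntermediateField kb N) : Prop where
  stable : ∀ (g : G) (x : N), x ∈ L → g • x ∈ L

variable (L : IntermediateField kb N) [StableLevel G L]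

/-- the action on a stable level -/
instance levelAction : MulSemiringAction G L where
  smul g x := ⟨g • (x : N), StableLevel.stable (L := L) g (x : N) x.2⟩
  one_smul x := Subtype.ext (one_smul G (x : N))
  mul_smul g h x := Subtype.ext (mul_smul g h (x : N))
  smul_zero g := Subtype.ext (smul_zero (A := N) g)
  smul_add g x y := Subtype.ext (smul_add g (x : N) (y : N))
  smul_one g := Subtype.ext (smul_one (N := N) g)
  smul_mul g x y := Subtype.ext (smul_mul' g (x : N) (y : N))

@[simp] theorem coe_smul_level (g : G) (x : L) : ((g • x : L) : N) = g • (x : N) := rfl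

theorem level_val_smul (g : G) (x : L) : L.val (g • x) = g • L.val x := rfl

instance equi_kb_level : Equi G kb L where
  smul_algebraMap g r := Subtype.ext (Equi.smul_algebraMap (G := G) (F := kb) (A := N) g r)

instance equi_level_N : Equi G L N where
  smul_algebraMap _ _ := rfl

instance openStab_level [TopologicalSpace G] [OpenStab G N] : OpenStab G L where
  isOpen x := by
    have h1 : MulAction.stabilizer G x = MulAction.stabilizer G (x : N) := by
      ext g
      rw [MulAction.mem_stabilizer_iff, MulAction.mem_stabilizer_iff]
      exact ⟨fun h => congrArg Subtype.val h, fun h => Subtype.ext h⟩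
    rw [h1]
    exact OpenStab.isOpen _

instance fixedT_level (T : L) [hT : FixedT G (T : N)] : FixedT G T where
  fixed g := Subtype.ext (hT.fixed g)

theorem finite_orbit [TopologicalSpace G] [IsTopologicalGroup G] [CompactSpace G] [OpenStab G N]
    (x : N) : (MulAction.orbit G x).Finite := by
  have h1 : IsOpen (MulAction.stabilizer G x : Set G) := OpenStab.isOpen x
  have h2 : Finite (G ⧸ MulAction.stabilizer G x) :=
    Subgroup.quotient_finite_of_isOpen _ h1
  have h3 : Finite (MulAction.orbit G x) :=
    Finite.of_equiv _ (MulAction.orbitEquivQuotientStabilizer G x).symm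
  exact Set.toFinite _

variable (G kb) in
/-- every finite subset of `N` is contained in a finitely generated stable level -/
theorem exists_stable_level [TopologicalSpace G] [IsTopologicalGroup G] [CompactSpace G]
    [OpenStab G N] (t : Finset N) : ∃ s : Finset N, t ⊆ s ∧ (∀ (g : G) (x : N), x ∈ s →
      g • x ∈ s) ∧ StableLevel G (IntermediateField.adjoin kb (s : Set N)) := by
  classical
  let s : Finset N := t.biUnion (fun x => (finite_orbit (G := G) x).toFinset)
  have hs : ∀ (g : G) (x : N), x ∈ s → g • x ∈ s := by
    intro g x hx
    rw [Finset.mem_biUnion] at hx ⊢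
    obtain ⟨y, hy, hx⟩ := hx
    refine ⟨y, hy, ?_⟩
    rw [Set.Finite.mem_toFinset] at hx ⊢
    obtain ⟨h, rfl⟩ := hx
    exact ⟨g * h, mul_smul g h y⟩
  refine ⟨s, ?_, hs, ⟨?_⟩⟩
  · intro x hx
    rw [Finset.mem_biUnion]
    refine ⟨x, hx, ?_⟩
    rw [Set.Finite.mem_toFinset]
    exact MulAction.mem_orbit_self x
  · intro g x hx
    induction hx using IntermediateField.adjoin_induction with
    | mem x hx => exact IntermediateField.subset_adjoin _ _ (hs g x hx)
    | algebraMap a =>
      rw [Equi.smul_algebraMap (G := G) (F := kb)]
      exact IntermediateField.algebraMap_mem _ _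
    | add a b _ _ ha hb =>
      rw [smul_add]
      exact IntermediateField.add_mem _ ha hb
    | inv a _ ha =>
      rw [smul_inv'']
      exact IntermediateField.inv_mem _ ha
    | mul a b _ _ ha hb =>
      rw [smul_mul']
      exact IntermediateField.mul_mem _ ha hb

end level

end P025H722
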